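import Mathlib
import Vale.Agent.Helper25.SingleFold

/-!
# P345 (single-fold conjecture): a Boolean algebra of single-fold representable sets

Call `S ⊆ ℕ^n` *bi-single-fold* if both `S` and its complement have single-fold Diophantine
representations.  The bi-single-fold sets form a Boolean algebra containing all sets defined by a
polynomial equation `p = 0`, a polynomial inequality `0 ≤ p`, or a divisibility `p ∣ q`
(`p, q ∈ ℤ[A_1, …, A_n]`).  Moreover single-fold representable sets are closed under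
intersections and disjoint unions.
-/

namespace Vale.Agent.Results.P345.BooleanClosure

open MvPolynomial
open Vale.Agent.Helper25.SingleFold

/-- `S ⊆ ℕ^n` has a single-fold Diophantine representation: there are `m` and a polynomial
`P ∈ ℤ[A_1, …, A_n, W_1, …, W_m]` such that `a ∈ S` iff `P(a, w) = 0` for some `w ∈ ℕ^m`, and
for every `a ∈ ℕ^n` there is at most one `w ∈ ℕ^m` with `P(a, w) = 0`. -/
def HasSingleFoldRep {n : ℕ} (S : Set (Fin n → ℕ)) : Prop :=
  ∃ (m : ℕ) (P : MvPolynomial (Fin n ⊕ Fin m) ℤ),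
    (∀ a : Fin n → ℕ, a ∈ S ↔
      ∃ w : Fin m → ℕ, eval (Sum.elim (fun i => (a i : ℤ)) (fun j => (w j : ℤ))) P = 0) ∧
    (∀ (a : Fin n → ℕ) (w w' : Fin m → ℕ),
      eval (Sum.elim (fun i => (a i : ℤ)) (fun j => (w j : ℤ))) P = 0 →
      eval (Sum.elim (fun i => (a i : ℤ)) (fun j => (w' j : ℤ))) P = 0 → w = w')

/-- Both `S` and its complement have single-fold Diophantine representations. -/
def BiSingleFold {n : ℕ} (S : Set (Fin n → ℕ)) : Prop :=
  HasSingleFoldRep S ∧ HasSingleFoldRep Sᶜ

theorem hasSingleFoldRep_of_SF {n : ℕ} {S : Set (Fin n → ℕ)} (h : SF S) :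
    HasSingleFoldRep S := by
  obtain ⟨ι, hι, P, h1, h2⟩ := h
  let e : ι ≃ Fin (Fintype.card ι) := Fintype.equivFin ι
  refine ⟨Fintype.card ι, rename (Sum.map id e) P, ?_, ?_⟩
  · intro a
    rw [h1 a]
    constructor
    · rintro ⟨w, hw⟩
      refine ⟨w ∘ e.symm, ?_⟩
      have := eval_map a (w ∘ e.symm) e P
      unfold pt at this
      rw [this]
      have hcomp : (w ∘ e.symm) ∘ e = w := by
        funext x
        simp
      rw [hcomp]
      exact hw
    · rintro ⟨w, hw⟩
      refine ⟨w ∘ e, ?_⟩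
      have := eval_map a w e P
      unfold pt at this
      rw [this] at hw
      exact hw
  · intro a w w' hw hw'
    have e1 := eval_map a w e P
    have e2 := eval_map a w' e P
    unfold pt at e1 e2
    rw [e1] at hw
    rw [e2] at hw'
    have := h2 a _ _ hw hw'
    funext x
    have hx := congrFun this (e.symm x)
    simpa using hx

theorem SF_of_hasSingleFoldRep {n : ℕ} {S : Set (Fin n → ℕ)} (h : HasSingleFoldRep S) :
    SF S := by
  obtain ⟨m, P, h1, h2⟩ := h
  exact ⟨Fin m, inferInstance, P, h1, h2⟩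

theorem inter_rep {n : ℕ} {S T : Set (Fin n → ℕ)} (hS : HasSingleFoldRep S)
    (hT : HasSingleFoldRep T) : HasSingleFoldRep (S ∩ T) :=
  hasSingleFoldRep_of_SF (SF.inter (SF_of_hasSingleFoldRep hS) (SF_of_hasSingleFoldRep hT))

theorem disjUnion_rep {n : ℕ} {S T : Set (Fin n → ℕ)} (hS : HasSingleFoldRep S)
    (hT : HasSingleFoldRep T) (hdisj : Disjoint S T) : HasSingleFoldRep (S ∪ T) :=
  hasSingleFoldRep_of_SF (SF.disjUnion (SF_of_hasSingleFoldRep hS) (SF_of_hasSingleFoldRep hT)
    (fun _ ha hb => Set.disjoint_left.1 hdisj ha hb))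

theorem bi_compl {n : ℕ} {S : Set (Fin n → ℕ)} (hS : BiSingleFold S) : BiSingleFold Sᶜ :=
  ⟨hS.2, by rw [compl_compl]; exact hS.1⟩

theorem bi_inter {n : ℕ} {S T : Set (Fin n → ℕ)} (hS : BiSingleFold S) (hT : BiSingleFold T) :
    BiSingleFold (S ∩ T) := by
  refine ⟨inter_rep hS.1 hT.1, ?_⟩
  have h := disjUnion_rep hS.2 (inter_rep hS.1 hT.2)
    (Set.disjoint_left.2 (fun a ha hb => ha hb.1))
  have heq : (S ∩ T)ᶜ = Sᶜ ∪ (S ∩ Tᶜ) := by
    ext a
    simp only [Set.mem_compl_iff, Set.mem_inter_iff, Set.mem_union]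
    tauto
  rw [heq]
  exact h

theorem bi_union {n : ℕ} {S T : Set (Fin n → ℕ)} (hS : BiSingleFold S) (hT : BiSingleFold T) :
    BiSingleFold (S ∪ T) := by
  have h := bi_compl (bi_inter (bi_compl hS) (bi_compl hT))
  have heq : (Sᶜ ∩ Tᶜ)ᶜ = S ∪ T := by
    ext a
    simp only [Set.mem_compl_iff, Set.mem_inter_iff, Set.mem_union]
    tauto
  rw [heq] at h
  exact h

/-- **A Boolean algebra of single-fold representable sets.**  For subsets of `ℕ^n`:
(1)-(3) the sets defined by `p = 0`, by `0 ≤ p` and by `p ∣ q` (polynomials over `ℤ` in the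
parameters, divisibility in `ℤ`) and their complements have single-fold Diophantine
representations; (4)-(6) the family of sets `S` such that `S` and its complement both have
single-fold representations is closed under complement, intersection and union; (7)-(8) the
family of single-fold representable sets is closed under intersection and disjoint union. -/
theorem result (n : ℕ) :
    (∀ p : MvPolynomial (Fin n) ℤ,
      BiSingleFold {a : Fin n → ℕ | eval (fun i => (a i : ℤ)) p = 0}) ∧
    (∀ p : MvPolynomial (Fin n) ℤ,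
      BiSingleFold {a : Fin n → ℕ | 0 ≤ eval (fun i => (a i : ℤ)) p}) ∧
    (∀ p q : MvPolynomial (Fin n) ℤ,
      BiSingleFold {a : Fin n → ℕ |
        eval (fun i => (a i : ℤ)) p ∣ eval (fun i => (a i : ℤ)) q}) ∧
    (∀ S : Set (Fin n → ℕ), BiSingleFold S → BiSingleFold Sᶜ) ∧
    (∀ S T : Set (Fin n → ℕ), BiSingleFold S → BiSingleFold T → BiSingleFold (S ∩ T)) ∧
    (∀ S T : Set (Fin n → ℕ), BiSingleFold S → BiSingleFold T → BiSingleFold (S ∪ T)) ∧
    (∀ S T : Set (Fin n → ℕ), HasSingleFoldRep S → HasSingleFoldRep T →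
      HasSingleFoldRep (S ∩ T)) ∧
    (∀ S T : Set (Fin n → ℕ), HasSingleFoldRep S → HasSingleFoldRep T → Disjoint S T →
      HasSingleFoldRep (S ∪ T)) := by
  refine ⟨fun p => ⟨hasSingleFoldRep_of_SF (sf_eqZero p), hasSingleFoldRep_of_SF (sf_neZero p)⟩,
    fun p => ⟨hasSingleFoldRep_of_SF (sf_nonneg p), hasSingleFoldRep_of_SF (sf_negative p)⟩,
    fun p q => ⟨hasSingleFoldRep_of_SF (sf_dvd p q), hasSingleFoldRep_of_SF (sf_ndvd p q)⟩,
    fun S hS => bi_compl hS, fun S T hS hT => bi_inter hS hT, fun S T hS hT => bi_union hS hT,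
    fun S T hS hT => inter_rep hS hT, fun S T hS hT hd => disjUnion_rep hS hT hd⟩

end Vale.Agent.Results.P345.BooleanClosure
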