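import Vale.Agent.Results.P345.BooleanClosure

/-!
# P345 (single-fold conjecture): divisibility and non-divisibility, in plain terms

For all polynomials `p, q` with integer coefficients in the parameters `A_1, ..., A_n`, the set
of parameter tuples `a` in `ℕ^n` with `p(a) ∣ q(a)` (divisibility in `ℤ`) and the set of those
with `p(a) ∤ q(a)` both have single-fold Diophantine representations: there are a number `m` of
witness variables and a polynomial `P` with integer coefficients in `A_1, ..., A_n, W_1, ..., W_m`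
such that `a` lies in the set exactly when `P(a, w) = 0` for some `w` in `ℕ^m`, and for every `a`
at most one `w` in `ℕ^m` has `P(a, w) = 0`.

The statement uses no definitions besides Mathlib's.  It is one conjunct of the hand-in
`BooleanClosure`, written out.
-/

namespace Vale.Agent.Results.P345.DivisibilityPlain

theorem result (n : ℕ) (p q : MvPolynomial (Fin n) ℤ) :
    (∃ (m : ℕ) (P : MvPolynomial (Fin n ⊕ Fin m) ℤ),
      (∀ a : Fin n → ℕ,
        (MvPolynomial.eval (fun i => (a i : ℤ)) p ∣ MvPolynomial.eval (fun i => (a i : ℤ)) q) ↔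
          ∃ w : Fin m → ℕ,
            MvPolynomial.eval (Sum.elim (fun i => (a i : ℤ)) (fun j => (w j : ℤ))) P = 0) ∧
      (∀ (a : Fin n → ℕ) (w w' : Fin m → ℕ),
        MvPolynomial.eval (Sum.elim (fun i => (a i : ℤ)) (fun j => (w j : ℤ))) P = 0 →
        MvPolynomial.eval (Sum.elim (fun i => (a i : ℤ)) (fun j => (w' j : ℤ))) P = 0 →
        w = w')) ∧
    (∃ (m : ℕ) (P : MvPolynomial (Fin n ⊕ Fin m) ℤ),
      (∀ a : Fin n → ℕ,
        ¬ (MvPolynomial.eval (fun i => (a i : ℤ)) p ∣ MvPolynomial.eval (fun i => (a i : ℤ)) q) ↔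
          ∃ w : Fin m → ℕ,
            MvPolynomial.eval (Sum.elim (fun i => (a i : ℤ)) (fun j => (w j : ℤ))) P = 0) ∧
      (∀ (a : Fin n → ℕ) (w w' : Fin m → ℕ),
        MvPolynomial.eval (Sum.elim (fun i => (a i : ℤ)) (fun j => (w j : ℤ))) P = 0 →
        MvPolynomial.eval (Sum.elim (fun i => (a i : ℤ)) (fun j => (w' j : ℤ))) P = 0 →
        w = w')) :=
  (Vale.Agent.Results.P345.BooleanClosure.result n).2.2.1 p q

end Vale.Agent.Results.P345.DivisibilityPlain
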