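import Mathlib
import Vale.Agent.Helper25.SingleFold

/-!
# P345 (single-fold conjecture): quantifier-free definable sets

Every subset of `ℕ^n` defined by a Boolean combination of polynomial equations `p = 0`,
inequalities `0 ≤ p` and divisibility relations `p ∣ q` (with `p, q ∈ ℤ[A_1, …, A_n]`) has a
single-fold Diophantine representation.
-/

namespace Vale.Agent.Results.P345.QuantifierFree

open MvPolynomial
open Vale.Agent.Helper25.SingleFold

/-- `S ⊆ ℕ^n` has a single-fold Diophantine representation: there are `m` and a polynomial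
`P ∈ ℤ[A_1, …, A_n, W_1, …, W_m]` such that `a ∈ S` iff `P(a, w) = 0` for some `w ∈ ℕ^m`, and
for every `a ∈ ℕ^n` there is at most one `w ∈ ℕ^m` with `P(a, w) = 0`. -/
def HasSingleFoldRep {n : ℕ} (S : Set (Fin n → ℕ)) : Prop :=
  ∃ (m : ℕ) (P : MvPolynomial (Fin n ⊕ Fin m) ℤ),
    (∀ a : Fin n → ℕ, a ∈ S ↔
      ∃ w : Fin m → ℕ, eval (Sum.elim (fun i => (a i : ℤ)) (fun j => (w j : ℤ))) P = 0) ∧
    (∀ (a : Fin n → ℕ) (w w' : Fin m → ℕ),
      eval (Sum.elim (fun i => (a i : ℤ)) (fun j => (w j : ℤ))) P = 0 →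
      eval (Sum.elim (fun i => (a i : ℤ)) (fun j => (w' j : ℤ))) P = 0 → w = w')

/-- Quantifier-free formulas in the parameters `A_1, …, A_n`: atoms are polynomial equations,
polynomial inequalities and divisibility between polynomial values (polynomials over `ℤ`). -/
inductive QF (n : ℕ) : Type
  | eqZero : MvPolynomial (Fin n) ℤ → QF n
  | nonneg : MvPolynomial (Fin n) ℤ → QF n
  | dvd : MvPolynomial (Fin n) ℤ → MvPolynomial (Fin n) ℤ → QF n
  | neg : QF n → QF n
  | conj : QF n → QF n → QF n
  | disj : QF n → QF n → QF n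

/-- Truth of a quantifier-free formula at a point `a ∈ ℕ^n`. -/
def QF.Holds {n : ℕ} : QF n → (Fin n → ℕ) → Prop
  | .eqZero p, a => eval (fun i => (a i : ℤ)) p = 0
  | .nonneg p, a => 0 ≤ eval (fun i => (a i : ℤ)) p
  | .dvd p q, a => eval (fun i => (a i : ℤ)) p ∣ eval (fun i => (a i : ℤ)) q
  | .neg φ, a => ¬ φ.Holds a
  | .conj φ ψ, a => φ.Holds a ∧ ψ.Holds a
  | .disj φ ψ, a => φ.Holds a ∨ ψ.Holds a

/-- From a representation with witnesses indexed by a finite type to one indexed by `Fin m`. -/
theorem hasSingleFoldRep_of_SF {n : ℕ} {S : Set (Fin n → ℕ)} (h : SF S) : HasSingleFoldRep S := by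
  obtain ⟨ι, hι, P, h1, h2⟩ := h
  let e : ι ≃ Fin (Fintype.card ι) := Fintype.equivFin ι
  refine ⟨Fintype.card ι, rename (Sum.map id e) P, ?_, ?_⟩
  · intro a
    rw [h1 a]
    constructor
    · rintro ⟨w, hw⟩
      refine ⟨w ∘ e.symm, ?_⟩
      have := eval_map a (w ∘ e.symm) e P
      unfold pt at this
      rw [this]
      have hcomp : (w ∘ e.symm) ∘ e = w := by
        funext x
        simp
      rw [hcomp]
      exact hw
    · rintro ⟨w, hw⟩
      refine ⟨w ∘ e, ?_⟩
      have := eval_map a w e P
      unfold pt at this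
      rw [this] at hw
      exact hw
  · intro a w w' hw hw'
    have e1 := eval_map a w e P
    have e2 := eval_map a w' e P
    unfold pt at e1 e2
    rw [e1] at hw
    rw [e2] at hw'
    have := h2 a _ _ hw hw'
    funext x
    have hx := congrFun this (e.symm x)
    simpa using hx

/-! ### The induction over formulas -/

theorem sf_formula {n : ℕ} (φ : QF n) :
    SF {a : Fin n → ℕ | φ.Holds a} ∧ SF {a : Fin n → ℕ | ¬ φ.Holds a} := by
  induction φ with
  | eqZero p => exact ⟨sf_eqZero p, sf_neZero p⟩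
  | nonneg p => exact ⟨sf_nonneg p, sf_negative p⟩
  | dvd p q => exact ⟨sf_dvd p q, sf_ndvd p q⟩
  | neg φ ih =>
    refine ⟨ih.2, ?_⟩
    have heq : {a : Fin n → ℕ | ¬ (QF.neg φ).Holds a} = {a : Fin n → ℕ | φ.Holds a} := by
      ext a
      simp only [Set.mem_ofPred_eq, QF.Holds, not_not]
    rw [heq]
    exact ih.1
  | conj φ ψ ih1 ih2 =>
    constructor
    · exact SF.inter ih1.1 ih2.1
    · have h := SF.disjUnion ih1.2 (SF.inter ih1.1 ih2.2) (fun a ha hb => ha hb.1)
      have heq : {a : Fin n → ℕ | ¬ (QF.conj φ ψ).Holds a} =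
          {a : Fin n → ℕ | ¬ φ.Holds a} ∪
            ({a : Fin n → ℕ | φ.Holds a} ∩ {a : Fin n → ℕ | ¬ ψ.Holds a}) := by
        ext a
        simp only [Set.mem_ofPred_eq, QF.Holds, Set.mem_union, Set.mem_inter_iff]
        tauto
      rw [heq]
      exact h
  | disj φ ψ ih1 ih2 =>
    constructor
    · have h := SF.disjUnion ih1.1 (SF.inter ih1.2 ih2.1) (fun a ha hb => hb.1 ha)
      have heq : {a : Fin n → ℕ | (QF.disj φ ψ).Holds a} =
          {a : Fin n → ℕ | φ.Holds a} ∪
            ({a : Fin n → ℕ | ¬ φ.Holds a} ∩ {a : Fin n → ℕ | ψ.Holds a}) := by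
        ext a
        simp only [Set.mem_ofPred_eq, QF.Holds, Set.mem_union, Set.mem_inter_iff]
        tauto
      rw [heq]
      exact h
    · have h := SF.inter ih1.2 ih2.2
      have heq : {a : Fin n → ℕ | ¬ (QF.disj φ ψ).Holds a} =
          {a : Fin n → ℕ | ¬ φ.Holds a} ∩ {a : Fin n → ℕ | ¬ ψ.Holds a} := by
        ext a
        simp only [Set.mem_ofPred_eq, QF.Holds, Set.mem_inter_iff]
        tauto
      rw [heq]
      exact h

/-- **Single-fold representations of quantifier-free definable sets.**  Every subset of `ℕ^n`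
defined by a Boolean combination of polynomial equations, polynomial inequalities and
divisibility relations between polynomial values (polynomials with integer coefficients in the
parameters) has a single-fold Diophantine representation. -/
theorem result (n : ℕ) (φ : QF n) : HasSingleFoldRep {a : Fin n → ℕ | φ.Holds a} :=
  hasSingleFoldRep_of_SF (sf_formula φ).1

end Vale.Agent.Results.P345.QuantifierFree
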